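import Mathlib
import Vale.Agent.Helper21.PTSDefs
import Vale.Agent.Helper21.PTSLemmas

/-!
P340: any counterexample to the Barendregt-Geuvers-Klop conjecture restricts to a
counterexample with finitely many sorts.
-/

namespace Vale.Agent.Results.P340.FiniteRestriction

open Vale.Agent.Helper21.PTS

universe u

/-- **Finite restriction of counterexamples.** If a pure type system with sorts `S`, axioms
`Ax` and rules `Ru` is weakly normalizing but not strongly normalizing, then there are
finitely many sorts `h 0, …, h (n-1)` of it (pairwise distinct) such that the restriction of
the system to these sorts (all axioms and rules among them) is again weakly normalizing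
and not strongly normalizing. -/
theorem result (S : Type u) (Ax : S → S → Prop) (Ru : S → S → S → Prop)
    (hWN : WeaklyNormalizing Ax Ru) (hSN : ¬ StronglyNormalizing Ax Ru) :
    ∃ (n : ℕ) (h : Fin n → S), Function.Injective h ∧
      WeaklyNormalizing (fun a b => Ax (h a) (h b)) (fun a b c => Ru (h a) (h b) (h c)) ∧
      ¬ StronglyNormalizing (fun a b => Ax (h a) (h b)) (fun a b c => Ru (h a) (h b) (h c)) :=
  exists_finite_restriction Ax Ru hWN hSN

end Vale.Agent.Results.P340.FiniteRestriction
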