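import Mathlib
import Vale.Agent.Helper21.PTSDefs
import Vale.Agent.Helper21.PTSLemmas

/-!
P340: the Barendregt-Geuvers-Klop conjecture (weak normalization implies strong
normalization, for beta reduction) reduces to pure type systems with finitely many sorts.
-/

namespace Vale.Agent.Results.P340.FiniteSortReduction

open Vale.Agent.Helper21.PTS

universe u

/-- **Reduction to finitely many sorts.** If every pure type system whose set of sorts is
`Fin n` (for some `n`) and which is weakly normalizing is strongly normalizing, then every
weakly normalizing pure type system, over an arbitrary type of sorts, is strongly normalizing. -/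
theorem result
    (hfin : ∀ (n : ℕ) (Ax : Fin n → Fin n → Prop) (Ru : Fin n → Fin n → Fin n → Prop),
      WeaklyNormalizing Ax Ru → StronglyNormalizing Ax Ru)
    (S : Type u) (Ax : S → S → Prop) (Ru : S → S → S → Prop) :
    WeaklyNormalizing Ax Ru → StronglyNormalizing Ax Ru := by
  intro hWN
  by_contra hSN
  obtain ⟨n, h, _, hWN', hSN'⟩ := exists_finite_restriction Ax Ru hWN hSN
  exact hSN' (hfin n _ _ hWN')

end Vale.Agent.Results.P340.FiniteSortReduction
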